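import Vale.Agent.P333.Defs
import Vale.Agent.P333.Gap2
import Vale.Agent.P333.UpperFinal
import Vale.Agent.P333.AmpA
import Vale.Agent.P333.AmpB6

open Vale.Agent.P333

theorem Vale.Agent.Results.P333.GapInstance.result (ρ : ℝ) (h1 : 1 ≤ ρ) (hρ : ρ < 156 / 155) :
    ∃ ε : ℝ, 0 < ε ∧ ε < 1 / 4 ∧ ∃ c₁ : ℕ, ∀ I : E3Lin, 0 < I.m →
      (∀ v, c₁ ≤ (I.occ v).card) → ∃ J : E3Lin, (J = I ∨ J = I.flip) ∧ Nonempty (Wheels J) ∧
        ∀ W : Wheels J,
          ((I.minUnsat : ℝ) ≤ ε * I.m →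
            (opt (strings J W.nxt W.ord) : ℝ) ≤ 76 * J.m + 3 * J.m0 + ε * J.m + J.n + 1) ∧
          ((1 / 2 - ε) * I.m ≤ I.minUnsat →
            ρ * (76 * J.m + 3 * J.m0 + ε * J.m + J.n + 1) <
              opt (strings J W.nxt W.ord)) := by
  have hU : ∀ (I : E3Lin) (W : Wheels I),
      opt (strings I W.nxt W.ord) ≤ 76 * I.m + 3 * I.m0 + I.minUnsat + I.n + 1 := by
    intro I W
    obtain ⟨x, hx⟩ := exists_minUnsat I
    rw [← hx]
    exact upper I W x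
  obtain ⟨c₀, ω, hω⟩ := wheels_of_amplifiers (amplifiersExist_of_count countBound)
  have hW : ∀ I : E3Lin, (∀ v, c₀ ≤ (I.occ v).card) → Nonempty (Wheels I) := by
    intro I hI
    obtain ⟨E⟩ := exists_enum I
    obtain ⟨W, _⟩ := hω I hI E
    exact ⟨W⟩
  obtain ⟨ε, hε, hε4, K, hK⟩ := gap_ratio ρ h1 hρ
  refine ⟨ε, hε, hε4, max c₀ K, ?_⟩
  intro I hm hocc
  by_cases h0 : 2 * I.m0 ≤ I.m
  · refine ⟨I, Or.inl rfl, hW I fun v => le_trans (le_max_left _ _) (hocc v), ?_⟩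
    intro W
    exact hK I hm h0 (fun v => le_trans (le_max_right _ _) (hocc v)) W (hU I W)
  · have hf := flip_m0 I
    refine ⟨I.flip, Or.inr rfl, hW I.flip fun v => le_trans (le_max_left _ _) (hocc v), ?_⟩
    intro W
    have := hK I.flip hm (by simp only; omega) (fun v => le_trans (le_max_right _ _) (hocc v)) W
      (hU I.flip W)
    rw [flip_minUnsat] at this
    exact this
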