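import Vale.Agent.P333.Defs
import Vale.Agent.P333.Gap
import Vale.Agent.P333.Size
import Vale.Agent.P333.UpperFinal
import Vale.Agent.P333.AmpA
import Vale.Agent.P333.AmpB6

open Vale.Agent.P333

theorem Vale.Agent.Results.P333.GapReduction.result :
    (∀ (I : E3Lin) (W : Wheels I),
      76 * I.m + 3 * I.m0 + I.minUnsat ≤ opt (strings I W.nxt W.ord) + 2 * I.n ∧
      opt (strings I W.nxt W.ord) ≤ 76 * I.m + 3 * I.m0 + I.minUnsat + I.n + 1 ∧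
      (strings I W.nxt W.ord).card ≤ 41 * I.m ∧ ∀ s ∈ strings I W.nxt W.ord, s.length ≤ 4) ∧
    (∃ (c₀ : ℕ) (ω : ∀ k : ℕ, Equiv.Perm (Fin k × Fin 5)), ∀ I : E3Lin,
      (∀ v, c₀ ≤ (I.occ v).card) → ∀ E : ∀ v, Fin (I.occ v).card ≃ {o : I.Occ // I.var o = v},
        ∃ W : Wheels I, (∀ v j, W.nxt (E v j) = E v (finRotate _ j)) ∧
          ∀ v j i, W.ord (E v j, i) = ((E v (ω _ (j, i)).1 : I.Occ), (ω _ (j, i)).2)) ∧
    ∀ ρ : ℝ, 1 ≤ ρ → ρ < 156 / 155 → ∃ ε : ℝ, 0 < ε ∧ ε < 1 / 4 ∧ ∃ c₁ : ℕ,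
      ∀ I : E3Lin, 0 < I.m → (∀ v, c₁ ≤ (I.occ v).card) →
        ∃ J : E3Lin, (J = I ∨ J = I.flip) ∧ Nonempty (Wheels J) ∧
          ∀ (W : Wheels J) (T : List (Letter J)), IsSuperstring (strings J W.nxt W.ord) T →
            (T.length : ℝ) ≤ ρ * opt (strings J W.nxt W.ord) →
            ((I.minUnsat : ℝ) ≤ ε * I.m →
              (T.length : ℝ) < 76 * J.m + 3 * J.m0 + (1 / 2 - ε) * J.m - 2 * J.n) ∧
            ((1 / 2 - ε) * I.m ≤ I.minUnsat →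
              76 * J.m + 3 * J.m0 + (1 / 2 - ε) * J.m - 2 * J.n ≤ (T.length : ℝ)) := by
  have hU : ∀ (I : E3Lin) (W : Wheels I),
      opt (strings I W.nxt W.ord) ≤ 76 * I.m + 3 * I.m0 + I.minUnsat + I.n + 1 := by
    intro I W
    obtain ⟨x, hx⟩ := exists_minUnsat I
    rw [← hx]
    exact upper I W x
  obtain ⟨c₀, ω, hω⟩ := wheels_of_amplifiers (amplifiersExist_of_count countBound)
  have hW : ∀ I : E3Lin, (∀ v, c₀ ≤ (I.occ v).card) → Nonempty (Wheels I) := by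
    intro I hI
    obtain ⟨E⟩ := exists_enum I
    obtain ⟨W, _⟩ := hω I hI E
    exact ⟨W⟩
  refine ⟨fun I W => ⟨lower_opt W, hU I W, strings_card _ _, strings_len _ _⟩, ⟨c₀, ω, hω⟩, ?_⟩
  intro ρ h1 hρ
  obtain ⟨ε, hε, hε4, K, hK⟩ := gap ρ h1 hρ
  refine ⟨ε, hε, hε4, max c₀ K, ?_⟩
  intro I hm hocc
  by_cases h0 : 2 * I.m0 ≤ I.m
  · refine ⟨I, Or.inl rfl, hW I fun v => le_trans (le_max_left _ _) (hocc v), ?_⟩
    intro W T hT hTρ
    exact hK I hm h0 (fun v => le_trans (le_max_right _ _) (hocc v)) W (hU I W) T hT hTρ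
  · have hf := flip_m0 I
    refine ⟨I.flip, Or.inr rfl, hW I.flip fun v => le_trans (le_max_left _ _) (hocc v), ?_⟩
    intro W T hT hTρ
    have := hK I.flip hm (by simp only; omega) (fun v => le_trans (le_max_right _ _) (hocc v)) W
      (hU I.flip W) T hT hTρ
    rw [flip_minUnsat] at this
    exact this
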